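import Mathlib

/-!
# P171 helper: almost every configuration consists of distinct points

For the Lebesgue measure on `Fin N → EuclideanSpace ℝ (Fin 3)` (more generally for an additive
Haar measure on a nontrivial finite-dimensional real normed space `E`), almost every configuration
`x : Fin N → E` is injective: the diagonals `{x | x i = x j}`, `i ≠ j`, are proper linear
subspaces, hence null sets.
-/

open MeasureTheory Set

namespace Vale.Agent.H71.P171

variable {E : Type*} [NormedAddCommGroup E] [NormedSpace ℝ E] [FiniteDimensional ℝ E]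
  [MeasurableSpace E] [BorelSpace E] [Nontrivial E]

/-- The diagonal `{x | x i = x j}` (`i ≠ j`) is a null set for every additive Haar measure on the
configuration space. -/
theorem diag_null {ι : Type*} [Fintype ι] (μ : Measure (ι → E)) [μ.IsAddHaarMeasure]
    {i j : ι} (hij : i ≠ j) : μ {x : ι → E | x i = x j} = 0 := by
  classical
  let f : (ι → E) →ₗ[ℝ] E :=
    (LinearMap.proj i : (ι → E) →ₗ[ℝ] E) - (LinearMap.proj j : (ι → E) →ₗ[ℝ] E)
  have hset : {x : ι → E | x i = x j} = (LinearMap.ker f : Set (ι → E)) := by
    ext x
    simp [f, sub_eq_zero]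
  rw [hset]
  apply Measure.addHaar_submodule
  intro htop
  obtain ⟨v, hv⟩ := exists_ne (0 : E)
  have hmem : (Pi.single i v : ι → E) ∈ LinearMap.ker f := by
    rw [htop]; trivial
  have : f (Pi.single i v) = 0 := hmem
  simp [f, Pi.single_eq_of_ne hij.symm] at this
  exact hv this

/-- Almost every configuration is injective (consists of distinct points). -/
theorem ae_injective {ι : Type*} [Fintype ι] (μ : Measure (ι → E)) [μ.IsAddHaarMeasure] :
    ∀ᵐ x ∂μ, Function.Injective x := by
  classical
  have h : ∀ i : ι, ∀ j : ι, i ≠ j → ∀ᵐ x ∂μ, x i ≠ x j := by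
    intro i j hij
    rw [ae_iff]
    simpa using diag_null μ hij
  have h2 : ∀ᵐ x ∂μ, ∀ i : ι, ∀ j : ι, i ≠ j → x i ≠ x j := by
    rw [ae_all_iff]; intro i
    rw [ae_all_iff]; intro j
    by_cases hij : i = j
    · exact Filter.Eventually.of_forall (fun x h => absurd hij h)
    · filter_upwards [h i j hij] with x hx _ using hx
  filter_upwards [h2] with x hx
  intro i j hxij
  by_contra hne
  exact hx i j hne hxij

/-- Almost every configuration of `N` points of Euclidean 3-space (Lebesgue measure on
`Fin N → EuclideanSpace ℝ (Fin 3)`) is injective. -/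
theorem ae_injective_E3 (N : ℕ) :
    ∀ᵐ x : Fin N → EuclideanSpace ℝ (Fin 3), Function.Injective x :=
  ae_injective (volume : Measure (Fin N → EuclideanSpace ℝ (Fin 3)))

/-- The same for the product measure written as `Measure.pi`. -/
theorem ae_injective_pi (N : ℕ) :
    ∀ᵐ x ∂(Measure.pi fun _ : Fin N => (volume : Measure (EuclideanSpace ℝ (Fin 3)))),
      Function.Injective x :=
  ae_injective_E3 N

end Vale.Agent.H71.P171
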